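import Mathlib
import Vale.Agent.P183.Two

namespace Vale.Agent.Results.P183.Fibres

open Vale.Agent.P183

/-- Every fibre of `π` has at most two elements. -/
def SmallFibres {K L : Type} (π : K → L) : Prop :=
  ∀ x y z, π x = π y → π y = π z → x = y ∨ y = z ∨ x = z

/-- An element that is standard and dually distributive. -/
def Neutral {K : Type} [Lattice K] (c : K) : Prop :=
  (∀ x y, x ⊓ (c ⊔ y) = (x ⊓ c) ⊔ (x ⊓ y)) ∧ ∀ x y, c ⊓ (x ⊔ y) = (c ⊓ x) ⊔ (c ⊓ y)

/-- Finite lattices that reach a one element lattice by finitely many surjective lattice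
homomorphisms with fibres of at most two elements. -/
inductive TwoBuilt : (K : Type) → Lattice K → Prop
  | one (K : Type) (iK : Lattice K) : Nonempty K → Subsingleton K → TwoBuilt K iK
  | step (L : Type) (iL : Lattice L) (K : Type) (iK : Lattice K) (π : LatticeHom K L) :
      TwoBuilt L iL → Finite K → Function.Surjective π → SmallFibres π → TwoBuilt K iK

theorem result :
    (∀ (K L : Type) [Lattice K] [Finite K] [Lattice L] [Finite L] (π : LatticeHom K L),
      Function.Surjective π → SmallFibres π → Representable L → Representable K) ∧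
    (∀ (L M : Type) [Lattice L] [Finite L] [Lattice M] [OrderBot M] [Finite M]
      (C : Set L) (lam : L → M), C.OrdConnected → MonotoneOn lam C →
      Representable L → Representable M → Representable (Infl C lam)) ∧
    (∀ (K : Type) [Lattice K] [Finite K] (c : K), Neutral c →
      Representable (Set.Ici c) → Representable (Set.Iic c) → Representable K) ∧
    (∀ (K : Type) (iK : Lattice K), TwoBuilt K iK → Representable K) ∧
    (∀ (K : Type) [Lattice K] [Finite K] [Nonempty K], ¬ Representable K →
      (∀ (L : Type) [Lattice L] [Finite L] [Nonempty L], Nat.card L < Nat.card K →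
        Representable L) →
      (∀ (L : Type) [Lattice L] (π : LatticeHom K L), Function.Surjective π → SmallFibres π →
        Function.Injective π) ∧ ∀ c : K, Neutral c → IsBot c ∨ IsTop c) := by
  refine ⟨fun K L _ _ _ _ π hs h2 hL => two_rep K L π hs h2 hL,
    fun _ _ _ _ _ _ _ _ _ hC hlam hL hM => infl_rep hC hlam hL hM,
    fun K _ _ c h hU hD => neutral_rep K c h.1 h.2 hU hD, fun K iK h => ?_,
    fun K _ _ _ hK hmin => ⟨fun L _ π hs h2 => ?_,
      fun c h => minimal_neutral K hmin hK c h.1 h.2⟩⟩
  · induction h with
    | one K iK h1 h2 => exact rep_one K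
    | step L iL K iK π _ hf hs h2 ih => exact two_rep K L π hs h2 ih
  · by_contra hi
    obtain ⟨x, y, z, h3, h4, h5, h6, h7⟩ := minimal_two K hmin hK L π hs hi
    rcases h2 x y z h3 h4 with h | h | h
    exacts [h5 h, h6 h, h7 h]

end Vale.Agent.Results.P183.Fibres
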