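import Mathlib
import Vale.Agent.P183.Main

namespace Vale.Agent.Results.P183.Inflation

open Vale.Agent.P183

theorem result :
    (∀ (L M : Type) [Lattice L] [Finite L] [Lattice M] [OrderBot M] [Finite M]
      (C : Set L) (lam : L → M), C.OrdConnected → MonotoneOn lam C →
      Representable L → Representable M → Representable (Infl C lam)) ∧
    (∀ (K : Type) [Lattice K] [Finite K] (c : K),
      (∀ x y, x ⊓ (c ⊔ y) = (x ⊓ c) ⊔ (x ⊓ y)) → (∀ x y, c ⊓ (x ⊔ y) = (c ⊓ x) ⊔ (c ⊓ y)) →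
      Representable (Set.Ici c) → Representable (Set.Iic c) → Representable K) ∧
    (∀ (K : Type) (iK : Lattice K), Doubled K iK → Representable K) ∧
    (∀ (K : Type) [Lattice K] [Finite K],
      (∀ (L : Type) [Lattice L] [Finite L] [Nonempty L], Nat.card L < Nat.card K →
        Representable L) → ¬ Representable K → ∀ c : K,
      (∀ x y, x ⊓ (c ⊔ y) = (x ⊓ c) ⊔ (x ⊓ y)) → (∀ x y, c ⊓ (x ⊔ y) = (c ⊓ x) ⊔ (c ⊓ y)) →
      IsBot c ∨ IsTop c) :=
  ⟨fun _ _ _ _ _ _ _ _ _ hC hlam hL hM => infl_rep hC hlam hL hM,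
    fun K _ _ c h1 h2 hU hD => neutral_rep K c h1 h2 hU hD,
    doubled_rep, fun K _ _ hmin hK c h1 h2 => minimal_neutral K hmin hK c h1 h2⟩

end Vale.Agent.Results.P183.Inflation
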